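import Vale.Agent.P296.Final

namespace Vale.Agent.Results.P296.NoMetric

open Vale.Agent.P296

/-- Griffiths' conjecture fails: there is an ample holomorphic vector bundle of rank two on
`P¹ × P¹` with no smooth Hermitian metric of strictly Griffiths positive curvature. -/
theorem result : ∃ E : Bundle 2, E.Ample ∧ ∀ h : HMetric E, ¬ h.GriffithsPos := main

end Vale.Agent.Results.P296.NoMetric
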